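import Vale.Agent.Lib.P176.Normal

open CategoryTheory

universe u

/-- Let `R` be a left Artinian ring and `ι : U → R` a ring homomorphism such that `R` is a finitely
generated projective left `U`-module and the right ideal `I = ι(J_U) R` generated by the image of
the Jacobson radical of `U` is two-sided. Then `findim R ≤ findim U + findim (R / I)`, where
`FindimLE A n` says that the little finitistic dimension of `A` is at most `n`. -/
theorem Vale.Agent.Results.P176.NormalExtension.result
    {U R : Type u} [Ring U] [Ring R] [IsArtinianRing R] (ι : U →+* R)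
    (hproj : Module.Projective U ((ModuleCat.restrictScalars ι).obj (ModuleCat.of R R)))
    (hfin : Module.Finite U ((ModuleCat.restrictScalars ι).obj (ModuleCat.of R R)))
    (I : Ideal R) [I.IsTwoSided]
    (hI : ∀ y, y ∈ I ↔ y ∈ AddSubgroup.closure {z : R | ∃ j ∈ Ring.jacobson U, ∃ r : R, z = ι j * r})
    (f g : ℕ) (hf : Vale.Agent.Lib.P176.FindimLE U f)
    (hg : Vale.Agent.Lib.P176.FindimLE (R ⧸ I) g) :
    Vale.Agent.Lib.P176.FindimLE R (f + g) :=
  Vale.Agent.Lib.P176.findim_normal ι I hproj hfin hI f g hf hg
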